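import Mathlib

/-!
The random triangle removal process on the vertex set `Fin n`, described through the expected
values of its final edge count and of the number of removed triangles that were edge-isolated at
the moment of removal.
-/

namespace Vale.Agent.Lib.P046

open Finset
open scoped Classical

variable {n : ℕ}

/-- The triangles of `G`, as 3-element vertex sets. -/
noncomputable def tri (G : SimpleGraph (Fin n)) : Finset (Finset (Fin n)) := G.cliqueFinset 3

/-- Delete from `G` all edges with both ends in the vertex set `t`. -/
def removeTri (G : SimpleGraph (Fin n)) (t : Finset (Fin n)) : SimpleGraph (Fin n) :=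
  G.deleteEdges (t.sym2 : Set (Sym2 (Fin n)))

/-- The triangle `t` shares no edge with any other triangle of `G`. -/
def isIso (G : SimpleGraph (Fin n)) (t : Finset (Fin n)) : Prop :=
  ∀ t' ∈ tri G, t' ≠ t → (t' ∩ t).card ≤ 1

/-- Removing a triangle strictly decreases the number of edges. -/
lemma card_edgeFinset_removeTri_lt (G : SimpleGraph (Fin n)) (t : Finset (Fin n))
    (ht : t ∈ tri G) : (removeTri G t).edgeFinset.card < G.edgeFinset.card := by
  have hc : G.IsNClique 3 t := SimpleGraph.mem_cliqueFinset_iff.mp ht
  obtain ⟨hcl, hcard⟩ := (G.isNClique_iff).mp hc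
  obtain ⟨a, b, hab⟩ : ∃ a b, a ∈ t ∧ b ∈ t ∧ a ≠ b := by
    have : 1 < t.card := by omega
    obtain ⟨a, ha, b, hb, hne⟩ := Finset.one_lt_card.mp this
    exact ⟨a, b, ha, hb, hne⟩
  obtain ⟨ha, hb, hne⟩ := hab
  apply Finset.card_lt_card
  rw [Finset.ssubset_iff_of_subset]
  · refine ⟨s(a, b), ?_, ?_⟩
    · rw [SimpleGraph.mem_edgeFinset, SimpleGraph.mem_edgeSet]
      exact hcl ha hb hne
    · rw [SimpleGraph.mem_edgeFinset, removeTri, SimpleGraph.edgeSet_deleteEdges]
      simp [ha, hb]
  · intro e he
    rw [SimpleGraph.mem_edgeFinset, removeTri, SimpleGraph.edgeSet_deleteEdges] at he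
    rw [SimpleGraph.mem_edgeFinset]
    exact he.1

/-- Expected number of edges of the final graph of the random triangle removal process started
from `G`: while a triangle exists, one is chosen uniformly at random and its edges are deleted. -/
noncomputable def expF (G : SimpleGraph (Fin n)) : ℝ :=
  if _h : (tri G).Nonempty then
    (∑ t ∈ (tri G).attach, expF (removeTri G t.1)) / ((tri G).card : ℝ)
  else (G.edgeFinset.card : ℝ)
termination_by G.edgeFinset.card
decreasing_by exact card_edgeFinset_removeTri_lt G t.1 t.2

/-- Expected number of steps of the process started from `G` at which the removed triangle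
shares no edge with any other triangle of the current graph. -/
noncomputable def expM (G : SimpleGraph (Fin n)) : ℝ :=
  if _h : (tri G).Nonempty then
    (∑ t ∈ (tri G).attach, ((if isIso G t.1 then 1 else 0) + expM (removeTri G t.1))) /
      ((tri G).card : ℝ)
  else 0
termination_by G.edgeFinset.card
decreasing_by exact card_edgeFinset_removeTri_lt G t.1 t.2

lemma expF_of_nonempty (G : SimpleGraph (Fin n)) (h : (tri G).Nonempty) :
    expF G = (∑ t ∈ tri G, expF (removeTri G t)) / ((tri G).card : ℝ) := by
  rw [expF, dif_pos h, Finset.sum_attach (tri G) (fun t => expF (removeTri G t))]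

lemma expF_of_empty (G : SimpleGraph (Fin n)) (h : ¬ (tri G).Nonempty) :
    expF G = (G.edgeFinset.card : ℝ) := by
  rw [expF, dif_neg h]

lemma expM_of_nonempty (G : SimpleGraph (Fin n)) (h : (tri G).Nonempty) :
    expM G = (∑ t ∈ tri G, ((if isIso G t then 1 else 0) + expM (removeTri G t))) /
      ((tri G).card : ℝ) := by
  rw [expM, dif_pos h,
    Finset.sum_attach (tri G) (fun t => (if isIso G t then 1 else 0) + expM (removeTri G t))]

lemma expM_of_empty (G : SimpleGraph (Fin n)) (h : ¬ (tri G).Nonempty) : expM G = 0 := by
  rw [expM, dif_neg h]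

end Vale.Agent.Lib.P046
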