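import Mathlib

/-!
Numeric weights for the Lyapunov function of the triangle removal process.
W 0 = 7, W 1 = 3, W (k+1) = W k * (2k) / (2k+1) for k at least 1.
-/

namespace Vale.Agent.Lib.P046

/-- The weight sequence. -/
noncomputable def W : ℕ → ℝ
  | 0 => 7
  | 1 => 3
  | (k + 2) => W (k + 1) * (2 * ((k : ℝ) + 1)) / (2 * ((k : ℝ) + 1) + 1)

lemma W_zero : W 0 = 7 := by simp [W]
lemma W_one : W 1 = 3 := by simp [W]
lemma W_succ_succ (k : ℕ) :
    W (k + 2) = W (k + 1) * (2 * ((k : ℝ) + 1)) / (2 * ((k : ℝ) + 1) + 1) := by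
  rw [W]

lemma W_pos : ∀ k, 0 < W k
  | 0 => by rw [W_zero]; norm_num
  | 1 => by rw [W_one]; norm_num
  | (k + 2) => by
    rw [W_succ_succ]
    have := W_pos (k + 1)
    positivity

/-- The recursion in cleared form. -/
lemma W_rec (k : ℕ) : W (k + 2) * (2 * ((k : ℝ) + 1) + 1) = W (k + 1) * (2 * ((k : ℝ) + 1)) := by
  rw [W_succ_succ]
  have : (2 * ((k : ℝ) + 1) + 1) ≠ 0 := by positivity
  field_simp

/-- Drop of the weight when a point loses a line. -/
noncomputable def dl (x : ℕ) : ℝ := W (x - 1) - W x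

lemma dl_zero : dl 0 = 0 := by simp [dl]
lemma dl_one : dl 1 = 4 := by simp [dl, W_zero, W_one]; norm_num

/-- For x at least 2, `dl x = W x / (2 (x-1))`. -/
lemma dl_succ_succ (k : ℕ) : dl (k + 2) = W (k + 2) / (2 * ((k : ℝ) + 1)) := by
  have h := W_rec k
  have hk : (2 * ((k : ℝ) + 1)) ≠ 0 := by positivity
  have : dl (k + 2) = W (k + 1) - W (k + 2) := by simp [dl]
  rw [this]
  field_simp
  nlinarith [h]

lemma dl_nonneg : ∀ x, 0 ≤ dl x
  | 0 => by rw [dl_zero]
  | 1 => by rw [dl_one]; norm_num
  | (k + 2) => by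
    rw [dl_succ_succ]
    have := W_pos (k + 2)
    positivity

lemma W_succ_le (k : ℕ) : W (k + 1) ≤ W k := by
  have := dl_nonneg (k + 1)
  simp only [dl, Nat.add_sub_cancel] at this
  linarith

lemma W_le_three : ∀ k, W (k + 1) ≤ 3
  | 0 => by rw [W_one]
  | (k + 1) => le_trans (W_succ_le (k + 1)) (W_le_three k)

/-- `dl` is antitone on positive integers. -/
lemma dl_succ_le (x : ℕ) : dl (x + 2) ≤ dl (x + 1) := by
  cases x with
  | zero =>
    have h2 : dl 2 = W 2 / 2 := by
      have := dl_succ_succ 0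
      simpa using this
    have h22 : W 2 = 2 := by
      have := W_succ_succ 0
      simp only [Nat.cast_zero, zero_add, W_one] at this
      rw [this]; norm_num
    rw [dl_one]
    simp only [zero_add]
    rw [h2, h22]; norm_num
  | succ k =>
    have h1 := dl_succ_succ (k + 1)
    have h2 := dl_succ_succ k
    have hw := W_succ_le (k + 2)
    have hpos := W_pos (k + 3)
    have e1 : dl (k + 1 + 2) = W (k + 3) / (2 * ((k : ℝ) + 1 + 1)) := by
      rw [h1]; push_cast; ring_nf
    have e2 : dl (k + 1 + 1) = W (k + 2) / (2 * ((k : ℝ) + 1)) := by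
      exact h2
    rw [e1, e2]
    have hk : (0 : ℝ) < 2 * ((k : ℝ) + 1) := by positivity
    have hk2 : (0 : ℝ) < 2 * ((k : ℝ) + 1 + 1) := by positivity
    have hw' : W (k + 3) ≤ W (k + 2) := hw
    exact div_le_div₀ (W_pos _).le hw' hk (by linarith)

/-- Convexity: losing `j` lines gains at least `j` times the marginal drop at `x`. -/
lemma W_sub_ge (x j : ℕ) (hj : j ≤ x) : W x + (j : ℝ) * dl x ≤ W (x - j) := by
  induction j with
  | zero => simp
  | succ j ih =>
    have hj' : j ≤ x := by omega
    have ih' := ih hj'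
    have hpos : 1 ≤ x - j := by omega
    obtain ⟨y, hy⟩ : ∃ y, x - j = y + 1 := ⟨x - j - 1, by omega⟩
    have hxj : x - (j + 1) = y := by omega
    rw [hxj]
    have hmono : dl x ≤ dl (y + 1) := by
      have hle : y + 1 ≤ x := by omega
      obtain ⟨c, rfl⟩ := Nat.exists_eq_add_of_le hle
      clear ih ih' hj hj' hpos hy hxj hle
      induction c with
      | zero => simp
      | succ c ihc =>
        have := dl_succ_le (y + c)
        have e : y + 1 + (c + 1) = y + c + 2 := by omega
        have e' : y + 1 + c = y + c + 1 := by omega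
        rw [e]
        rw [e'] at ihc
        linarith
    have hstep : W (y + 1) + dl (y + 1) = W y := by
      simp [dl]
    rw [hy] at ih'
    push_cast
    nlinarith [ih', hmono, hstep]

end Vale.Agent.Lib.P046
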