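import Mathlib
import Vale.Agent.Lib.P046.Weights

/-!
The numeric inequality behind the Lyapunov function.
-/

namespace Vale.Agent.Lib.P046

lemma W_anti {x y : ℕ} (h : x ≤ y) : W y ≤ W x := by
  obtain ⟨c, rfl⟩ := Nat.exists_eq_add_of_le h
  clear h
  induction c with
  | zero => simp
  | succ c ih =>
    have := W_succ_le (x + c)
    rw [← add_assoc]
    linarith

lemma W_two : W 2 = 2 := by
  have := W_succ_succ 0
  simp only [Nat.cast_zero, zero_add, W_one] at this
  rw [this]; norm_num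

/-- The pair function. -/
noncomputable def pf (x y : ℕ) : ℝ :=
  ((x : ℝ) - 1) * dl y + ((y : ℝ) - 1) * dl x - (W x + W y) / 2

lemma pf_comm (x y : ℕ) : pf x y = pf y x := by
  simp only [pf]; ring

lemma pf_two_le (x y : ℕ) (hx : 2 ≤ x) (hy : 2 ≤ y) : 0 ≤ pf x y := by
  obtain ⟨a, rfl⟩ : ∃ a, x = a + 2 := ⟨x - 2, by omega⟩
  obtain ⟨b, rfl⟩ : ∃ b, y = b + 2 := ⟨y - 2, by omega⟩
  have hA : (0 : ℝ) < (a : ℝ) + 1 := by positivity
  have hB : (0 : ℝ) < (b : ℝ) + 1 := by positivity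
  have hU := W_pos (a + 2)
  have hV := W_pos (b + 2)
  have e : pf (a + 2) (b + 2) =
      (((b : ℝ) - a) * (W (a + 2) * ((b : ℝ) + 1) - W (b + 2) * ((a : ℝ) + 1))) /
        (2 * ((a : ℝ) + 1) * ((b : ℝ) + 1)) := by
    simp only [pf]
    rw [dl_succ_succ, dl_succ_succ]
    push_cast
    field_simp
    ring
  rw [e]
  apply div_nonneg _ (by positivity)
  rcases le_total a b with hab | hab
  · have h1 : (a : ℝ) ≤ b := by exact_mod_cast hab
    have h2 : W (b + 2) ≤ W (a + 2) := W_anti (by omega)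
    apply mul_nonneg (by linarith)
    have : W (b + 2) * ((a : ℝ) + 1) ≤ W (a + 2) * ((b : ℝ) + 1) :=
      mul_le_mul h2 (by linarith) (by positivity) hU.le
    linarith
  · have h1 : (b : ℝ) ≤ a := by exact_mod_cast hab
    have h2 : W (a + 2) ≤ W (b + 2) := W_anti (by omega)
    apply mul_nonneg_of_nonpos_of_nonpos (by linarith)
    have : W (a + 2) * ((b : ℝ) + 1) ≤ W (b + 2) * ((a : ℝ) + 1) :=
      mul_le_mul h2 (by linarith) (by positivity) hV.le
    linarith

lemma pf_one (x : ℕ) (hx : 2 ≤ x) : 3 / 2 ≤ pf x 1 := by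
  have h1 : W x ≤ 2 := by
    have := W_anti hx
    rwa [W_two] at this
  have h2 : (2 : ℝ) ≤ x := by exact_mod_cast hx
  simp only [pf, dl_one, W_one, Nat.cast_one, sub_self, zero_mul, add_zero]
  nlinarith

lemma pf_one_one : pf 1 1 = -3 := by
  simp only [pf, dl_one, W_one, Nat.cast_one, sub_self, zero_mul, add_zero]
  norm_num

/-- The three-point quantity is nonnegative unless all three degrees are one. -/
lemma Lam_nonneg (x y z : ℕ) (hx : 1 ≤ x) (hy : 1 ≤ y) (hz : 1 ≤ z)
    (h : ¬(x = 1 ∧ y = 1 ∧ z = 1)) : 0 ≤ pf x y + pf x z + pf y z := by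
  -- the case of exactly two ones
  have key2 : ∀ u : ℕ, 2 ≤ u → 0 ≤ pf u 1 + pf u 1 + pf 1 1 := by
    intro u hu
    have h1 : W u ≤ 2 := by
      have := W_anti hu
      rwa [W_two] at this
    have h2 : (2 : ℝ) ≤ u := by exact_mod_cast hu
    rw [pf_one_one]
    simp only [pf, dl_one, W_one, Nat.cast_one, sub_self, zero_mul, add_zero]
    nlinarith
  rcases Nat.lt_or_ge x 2 with hx2 | hx2
  · have ex : x = 1 := by omega
    subst ex
    rcases Nat.lt_or_ge y 2 with hy2 | hy2
    · have ey : y = 1 := by omega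
      subst ey
      have hz2 : 2 ≤ z := by
        by_contra hc
        exact h ⟨rfl, rfl, by omega⟩
      have := key2 z hz2
      rw [pf_comm 1 z]
      linarith
    · rcases Nat.lt_or_ge z 2 with hz2 | hz2
      · have ez : z = 1 := by omega
        subst ez
        have := key2 y hy2
        rw [pf_comm 1 y]
        linarith
      · have a1 := pf_one y hy2
        have a2 := pf_one z hz2
        have a3 := pf_two_le y z hy2 hz2
        rw [pf_comm 1 y, pf_comm 1 z]
        linarith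
  · rcases Nat.lt_or_ge y 2 with hy2 | hy2
    · have ey : y = 1 := by omega
      subst ey
      rcases Nat.lt_or_ge z 2 with hz2 | hz2
      · have ez : z = 1 := by omega
        subst ez
        have := key2 x hx2
        linarith
      · have a1 := pf_one x hx2
        have a2 := pf_one z hz2
        have a3 := pf_two_le x z hx2 hz2
        rw [pf_comm 1 z]
        linarith
    · rcases Nat.lt_or_ge z 2 with hz2 | hz2
      · have ez : z = 1 := by omega
        subst ez
        have a1 := pf_one x hx2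
        have a2 := pf_one y hy2
        have a3 := pf_two_le x y hx2 hy2
        linarith
      · have a1 := pf_two_le x y hx2 hy2
        have a2 := pf_two_le x z hx2 hz2
        have a3 := pf_two_le y z hy2 hz2
        linarith

lemma Lam_one : pf 1 1 + pf 1 1 + pf 1 1 = -9 := by
  rw [pf_one_one]; norm_num

/-- Lower bound for the weights. -/
lemma W_sq_ge (k : ℕ) : 9 ≤ W (k + 1) ^ 2 * (2 * (k : ℝ) + 1) := by
  induction k with
  | zero => simp [W_one]; norm_num
  | succ k ih =>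
    have e : W (k + 1 + 1) = W (k + 1) * (2 * ((k : ℝ) + 1)) / (2 * ((k : ℝ) + 1) + 1) :=
      W_succ_succ k
    rw [e]
    push_cast
    have hk : (0 : ℝ) ≤ k := Nat.cast_nonneg k
    have h3 : (0 : ℝ) < 2 * ((k : ℝ) + 1) + 1 := by positivity
    have h4 : (0 : ℝ) < 2 * (k : ℝ) + 1 := by positivity
    have e2 : (W (k + 1) * (2 * ((k : ℝ) + 1)) / (2 * ((k : ℝ) + 1) + 1)) ^ 2 *
        (2 * ((k : ℝ) + 1) + 1) =
        W (k + 1) ^ 2 * (4 * ((k : ℝ) + 1) ^ 2) / (2 * ((k : ℝ) + 1) + 1) := by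
      field_simp
      ring
    have e3 : 2 * ((k : ℝ) + 1) + 1 = 2 * (k : ℝ) + 3 := by ring
    have target : 9 ≤ (W (k + 1) ^ 2 * (4 * ((k : ℝ) + 1) ^ 2) / (2 * ((k : ℝ) + 1) + 1)) := by
      rw [le_div_iff₀ h3, e3]
      have h33 : (0 : ℝ) < 2 * (k : ℝ) + 3 := by positivity
      have hW : 0 ≤ W (k + 1) ^ 2 := by positivity
      have a : (2 * (k : ℝ) + 1) * (2 * (k : ℝ) + 3) ≤ 4 * ((k : ℝ) + 1) ^ 2 := by nlinarith
      calc 9 * (2 * (k : ℝ) + 3) ≤ (W (k + 1) ^ 2 * (2 * (k : ℝ) + 1)) * (2 * (k : ℝ) + 3) :=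
            mul_le_mul_of_nonneg_right ih h33.le
        _ = W (k + 1) ^ 2 * ((2 * (k : ℝ) + 1) * (2 * (k : ℝ) + 3)) := by ring
        _ ≤ W (k + 1) ^ 2 * (4 * ((k : ℝ) + 1) ^ 2) := mul_le_mul_of_nonneg_left a hW
    calc (9 : ℝ) ≤ _ := target
      _ = _ := e2.symm

end Vale.Agent.Lib.P046
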