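import Mathlib
import Vale.Agent.Lib.P046.Pair

/-!
The one-step inequality in the language of 3-uniform linear hypergraphs.
-/

namespace Vale.Agent.Lib.P046

open Finset

set_option linter.unusedSectionVars false

section Abstract

variable {P L : Type*} [DecidableEq P] [DecidableEq L]
variable (lines : Finset L) (pts : L → Finset P)

/-- Lines all of whose points lie in `S`. -/
def avail (S : Finset P) : Finset L := lines.filter (fun l => pts l ⊆ S)

/-- Number of available lines through a point. -/
def xdeg (S : Finset P) (q : P) : ℕ := ((avail lines pts S).filter (fun l => q ∈ pts l)).card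

/-- The Lyapunov function. -/
noncomputable def Qf (S : Finset P) : ℝ := ∑ q ∈ S, W (xdeg lines pts S q)

/-- Number of lines through `q` that die when `l` is removed. -/
def jc (S : Finset P) (q : P) (l : L) : ℕ :=
  ((avail lines pts S).filter (fun h => q ∈ pts h ∧ ¬ Disjoint (pts h) (pts l))).card

/-- Number of lines not through `q` which meet `h`. -/
def cnt (S : Finset P) (q : P) (h : L) : ℕ :=
  ((avail lines pts S).filter (fun l => q ∉ pts l ∧ ¬ Disjoint (pts h) (pts l))).card

/-- A line sharing no point with another available line. -/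
def isoL (S : Finset P) (l : L) : Prop :=
  ∀ h ∈ avail lines pts S, h ≠ l → Disjoint (pts h) (pts l)

lemma avail_sdiff (S : Finset P) (l : L) :
    avail lines pts (S \ pts l) =
      (avail lines pts S).filter (fun h => Disjoint (pts h) (pts l)) := by
  ext h
  simp [avail, Finset.subset_sdiff, and_assoc]

lemma xdeg_add_jc (S : Finset P) (q : P) (l : L) :
    xdeg lines pts (S \ pts l) q + jc lines pts S q l = xdeg lines pts S q := by
  classical
  have h := Finset.card_filter_add_card_filter_not
    (s := (avail lines pts S).filter (fun h => q ∈ pts h))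
    (fun h => Disjoint (pts h) (pts l))
  rw [xdeg, xdeg, jc, avail_sdiff, ← h]
  congr 1
  · congr 1
    ext h
    simp only [mem_filter]
    tauto
  · congr 1
    ext h
    simp only [mem_filter]
    tauto

lemma Qf_sdiff_ge (S : Finset P) (l : L) (hl : pts l ⊆ S) :
    Qf lines pts S - ∑ q ∈ pts l, W (xdeg lines pts S q)
      + ∑ q ∈ S \ pts l, (jc lines pts S q l : ℝ) * dl (xdeg lines pts S q)
      ≤ Qf lines pts (S \ pts l) := by
  have h1 : Qf lines pts S =
      ∑ q ∈ S \ pts l, W (xdeg lines pts S q) + ∑ q ∈ pts l, W (xdeg lines pts S q) :=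
    (Finset.sum_sdiff hl).symm
  rw [h1, add_sub_cancel_right, ← Finset.sum_add_distrib, Qf]
  apply Finset.sum_le_sum
  intro q _
  have h2 := xdeg_add_jc lines pts S q l
  have h3 : jc lines pts S q l ≤ xdeg lines pts S q := by omega
  have h4 := W_sub_ge (xdeg lines pts S q) (jc lines pts S q l) h3
  have h5 : xdeg lines pts S q - jc lines pts S q l = xdeg lines pts (S \ pts l) q := by omega
  rwa [h5] at h4

/-- Swapping the order of summation. -/
lemma swap_sum (S : Finset P) (hA : ∀ h ∈ avail lines pts S, pts h ⊆ S) (f : P → ℝ) :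
    ∑ l ∈ avail lines pts S, ∑ q ∈ S \ pts l, (jc lines pts S q l : ℝ) * f q =
      ∑ h ∈ avail lines pts S, ∑ q ∈ pts h, (cnt lines pts S q h : ℝ) * f q := by
  classical
  set A := avail lines pts S with hAdef
  let I : L → P → L → ℝ := fun l q h =>
    if q ∉ pts l ∧ q ∈ pts h ∧ ¬ Disjoint (pts h) (pts l) then f q else 0
  have e1 : ∀ l ∈ A, ∑ q ∈ S \ pts l, (jc lines pts S q l : ℝ) * f q =
      ∑ q ∈ S, ∑ h ∈ A, I l q h := by
    intro l _
    rw [Finset.sdiff_eq_filter, Finset.sum_filter]
    apply Finset.sum_congr rfl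
    intro q _
    by_cases hq : q ∉ pts l
    · simp only [hq, if_true, I, true_and, not_false_eq_true]
      rw [jc, Finset.card_filter]
      push_cast
      rw [Finset.sum_mul]
      apply Finset.sum_congr rfl
      intro h _
      split_ifs <;> simp
    · simp [hq, I]
  have e2 : ∀ h ∈ A, ∑ q ∈ pts h, (cnt lines pts S q h : ℝ) * f q =
      ∑ q ∈ S, ∑ l ∈ A, I l q h := by
    intro h hh
    have hsub := hA h hh
    rw [← Finset.sum_subset hsub (f := fun q => ∑ l ∈ A, I l q h)]
    · apply Finset.sum_congr rfl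
      intro q hq
      rw [cnt, Finset.card_filter]
      push_cast
      rw [Finset.sum_mul]
      apply Finset.sum_congr rfl
      intro l _
      simp only [I, hq, true_and]
      split_ifs <;> simp_all
    · intro q _ hq
      apply Finset.sum_eq_zero
      intro l _
      simp [I, hq]
  rw [Finset.sum_congr rfl e1, Finset.sum_congr rfl e2]
  calc ∑ l ∈ A, ∑ q ∈ S, ∑ h ∈ A, I l q h
      = ∑ l ∈ A, ∑ h ∈ A, ∑ q ∈ S, I l q h := by
        apply Finset.sum_congr rfl
        intro l _
        exact Finset.sum_comm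
    _ = ∑ h ∈ A, ∑ l ∈ A, ∑ q ∈ S, I l q h := Finset.sum_comm
    _ = ∑ h ∈ A, ∑ q ∈ S, ∑ l ∈ A, I l q h := by
        apply Finset.sum_congr rfl
        intro h _
        exact Finset.sum_comm

/-- Every point of an available line lies in an available line. -/
lemma one_le_xdeg (S : Finset P) {h : L} (hh : h ∈ avail lines pts S) {q : P} (hq : q ∈ pts h) :
    1 ≤ xdeg lines pts S q := by
  rw [xdeg]
  apply Finset.card_pos.mpr
  exact ⟨h, by simp only [mem_filter]; exact ⟨hh, hq⟩⟩

/-- Counting lemma. Uses that two lines share at most one point. -/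
lemma sum_erase_le_cnt (S : Finset P)
    (hlin : ∀ l ∈ lines, ∀ h ∈ lines, ∀ a ∈ pts l, ∀ b ∈ pts l, a ∈ pts h → b ∈ pts h → a ≠ b →
      l = h)
    {h : L} (hh : h ∈ avail lines pts S) {q : P} (hq : q ∈ pts h) :
    ∑ b ∈ (pts h).erase q, ((xdeg lines pts S b : ℝ) - 1) ≤ (cnt lines pts S q h : ℝ) := by
  classical
  set A := avail lines pts S with hAdef
  let T : P → Finset L := fun b => A.filter (fun l => b ∈ pts l ∧ q ∉ pts l)
  have hlinA : ∀ l ∈ A, ∀ g ∈ A, ∀ a ∈ pts l, ∀ b ∈ pts l, a ∈ pts g → b ∈ pts g → a ≠ b → l = g := by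
    intro l hl g hg
    exact hlin l (Finset.mem_filter.mp hl).1 g (Finset.mem_filter.mp hg).1
  have hT : ∀ b ∈ (pts h).erase q, ((xdeg lines pts S b : ℝ) - 1) = ((T b).card : ℝ) := by
    intro b hb
    have hb1 : b ∈ pts h := Finset.mem_of_mem_erase hb
    have hb2 : b ≠ q := Finset.ne_of_mem_erase hb
    have e : A.filter (fun l => b ∈ pts l) = insert h (T b) := by
      ext l
      simp only [mem_filter, mem_insert, T]
      constructor
      · rintro ⟨hl, hbl⟩
        by_cases hql : q ∈ pts l
        · left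
          exact hlinA l hl h hh q hql b hbl hq hb1 (Ne.symm hb2)
        · right
          exact ⟨hl, hbl, hql⟩
      · rintro (rfl | ⟨hl, hbl, _⟩)
        · exact ⟨hh, hb1⟩
        · exact ⟨hl, hbl⟩
    have hnot : h ∉ T b := by
      simp only [mem_filter, T, not_and, not_not]
      intro _ _
      exact hq
    have : xdeg lines pts S b = (T b).card + 1 := by
      rw [xdeg, ← hAdef, e, Finset.card_insert_of_notMem hnot]
    rw [this]
    push_cast
    ring
  rw [Finset.sum_congr rfl hT]
  have hdisj : ((pts h).erase q : Set P).PairwiseDisjoint T := by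
    intro b hb c hc hbc
    simp only [Function.onFun]
    rw [Finset.disjoint_left]
    intro l hl hl'
    have hb1 : b ∈ pts h := Finset.mem_of_mem_erase (by exact_mod_cast hb)
    have hc1 : c ∈ pts h := Finset.mem_of_mem_erase (by exact_mod_cast hc)
    simp only [mem_filter, T] at hl hl'
    have := hlinA l hl.1 h hh b hl.2.1 c hl'.2.1 hb1 hc1 hbc
    exact hl.2.2 (this ▸ hq)
  have hcard : ((pts h).erase q).sum (fun b => (T b).card) = (((pts h).erase q).biUnion T).card :=
    (Finset.card_biUnion hdisj).symm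
  have hsub : ((pts h).erase q).biUnion T ⊆
      A.filter (fun l => q ∉ pts l ∧ ¬ Disjoint (pts h) (pts l)) := by
    intro l hl
    rw [Finset.mem_biUnion] at hl
    obtain ⟨b, hb, hl⟩ := hl
    simp only [mem_filter, T] at hl ⊢
    refine ⟨hl.1, hl.2.2, ?_⟩
    rw [Finset.not_disjoint_iff]
    exact ⟨b, Finset.mem_of_mem_erase hb, hl.2.1⟩
  have hle := Finset.card_le_card hsub
  have : (∑ b ∈ (pts h).erase q, ((T b).card : ℝ)) = (((pts h).erase q).biUnion T).card := by
    rw [← hcard]
    push_cast
    rfl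
  rw [this]
  exact_mod_cast hle

/-- The per-line bound. -/
lemma per_line (S : Finset P)
    (hcard : ∀ l ∈ lines, (pts l).card = 3)
    (hlin : ∀ l ∈ lines, ∀ h ∈ lines, ∀ a ∈ pts l, ∀ b ∈ pts l, a ∈ pts h → b ∈ pts h → a ≠ b →
      l = h)
    {h : L} (hh : h ∈ avail lines pts S) [Decidable (isoL lines pts S h)] :
    -(if isoL lines pts S h then (9 : ℝ) else 0) ≤
      ∑ q ∈ pts h, ((cnt lines pts S q h : ℝ) * dl (xdeg lines pts S q)
        - W (xdeg lines pts S q)) := by
  classical
  have hc := hcard h (Finset.mem_filter.mp hh).1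
  obtain ⟨a, b, c, hab, hac, hbc, hpts⟩ := Finset.card_eq_three.mp hc
  have ha : a ∈ pts h := by rw [hpts]; simp
  have hb : b ∈ pts h := by rw [hpts]; simp
  have hc' : c ∈ pts h := by rw [hpts]; simp
  set x := xdeg lines pts S a with hx
  set y := xdeg lines pts S b with hy
  set z := xdeg lines pts S c with hz
  have hx1 : 1 ≤ x := one_le_xdeg lines pts S hh ha
  have hy1 : 1 ≤ y := one_le_xdeg lines pts S hh hb
  have hz1 : 1 ≤ z := one_le_xdeg lines pts S hh hc'
  have ca := sum_erase_le_cnt lines pts S hlin hh ha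
  have cb := sum_erase_le_cnt lines pts S hlin hh hb
  have cc := sum_erase_le_cnt lines pts S hlin hh hc'
  have ea : (pts h).erase a = {b, c} := by
    rw [hpts]; ext v; simp only [mem_erase, mem_insert, mem_singleton]
    constructor
    · rintro ⟨h1, h2 | h2 | h2⟩
      · exact absurd h2 h1
      · exact Or.inl h2
      · exact Or.inr h2
    · rintro (rfl | rfl)
      · exact ⟨Ne.symm hab, Or.inr (Or.inl rfl)⟩
      · exact ⟨Ne.symm hac, Or.inr (Or.inr rfl)⟩
  have eb : (pts h).erase b = {a, c} := by
    rw [hpts]; ext v; simp only [mem_erase, mem_insert, mem_singleton]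
    constructor
    · rintro ⟨h1, h2 | h2 | h2⟩
      · exact Or.inl h2
      · exact absurd h2 h1
      · exact Or.inr h2
    · rintro (rfl | rfl)
      · exact ⟨hab, Or.inl rfl⟩
      · exact ⟨Ne.symm hbc, Or.inr (Or.inr rfl)⟩
  have ec : (pts h).erase c = {a, b} := by
    rw [hpts]; ext v; simp only [mem_erase, mem_insert, mem_singleton]
    constructor
    · rintro ⟨h1, h2 | h2 | h2⟩
      · exact Or.inl h2
      · exact Or.inr h2
      · exact absurd h2 h1
    · rintro (rfl | rfl)
      · exact ⟨hac, Or.inl rfl⟩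
      · exact ⟨hbc, Or.inr (Or.inl rfl)⟩
  rw [ea, Finset.sum_pair hbc] at ca
  rw [eb, Finset.sum_pair hac] at cb
  rw [ec, Finset.sum_pair hab] at cc
  rw [hpts, Finset.sum_insert (by simp [hab, hac]), Finset.sum_insert (by simp [hbc]),
    Finset.sum_singleton]
  rw [← hx, ← hy, ← hz] at *
  have da := mul_le_mul_of_nonneg_right ca (dl_nonneg x)
  have db := mul_le_mul_of_nonneg_right cb (dl_nonneg y)
  have dc := mul_le_mul_of_nonneg_right cc (dl_nonneg z)
  have hsum : ((cnt lines pts S a h : ℝ) * dl x - W x) + (((cnt lines pts S b h : ℝ) * dl y - W y)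
      + ((cnt lines pts S c h : ℝ) * dl z - W z)) ≥ pf x y + pf x z + pf y z := by
    simp only [pf]
    nlinarith [da, db, dc]
  by_cases hiso : isoL lines pts S h
  · rw [if_pos hiso]
    -- all three degrees are one, or the bound still holds
    by_cases hall : x = 1 ∧ y = 1 ∧ z = 1
    · obtain ⟨h1, h2, h3⟩ := hall
      rw [h1, h2, h3, Lam_one] at hsum
      rw [h1, h2, h3]
      linarith
    · have := Lam_nonneg x y z hx1 hy1 hz1 hall
      linarith
  · rw [if_neg hiso]
    have hall : ¬ (x = 1 ∧ y = 1 ∧ z = 1) := by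
      rintro ⟨h1, h2, h3⟩
      apply hiso
      intro g hg hne
      rw [Finset.disjoint_left]
      intro v hvg hvh
      have hv1 : xdeg lines pts S v = 1 := by
        rw [hpts] at hvh
        simp only [mem_insert, mem_singleton] at hvh
        rcases hvh with rfl | rfl | rfl
        · exact h1
        · exact h2
        · exact h3
      rw [xdeg, Finset.card_eq_one] at hv1
      obtain ⟨u, hu⟩ := hv1
      have m1 : g ∈ (avail lines pts S).filter (fun l => v ∈ pts l) :=
        Finset.mem_filter.mpr ⟨hg, hvg⟩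
      have m2 : h ∈ (avail lines pts S).filter (fun l => v ∈ pts l) :=
        Finset.mem_filter.mpr ⟨hh, hvh⟩
      rw [hu, Finset.mem_singleton] at m1 m2
      exact hne (m1.trans m2.symm)
    have := Lam_nonneg x y z hx1 hy1 hz1 hall
    linarith

/-- The one-step inequality for the Lyapunov function. -/
theorem one_step (S : Finset P)
    (hcard : ∀ l ∈ lines, (pts l).card = 3)
    (hlin : ∀ l ∈ lines, ∀ h ∈ lines, ∀ a ∈ pts l, ∀ b ∈ pts l, a ∈ pts h → b ∈ pts h → a ≠ b →
      l = h)
    [DecidablePred (isoL lines pts S)] :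
    ((avail lines pts S).card : ℝ) * Qf lines pts S ≤
      ∑ l ∈ avail lines pts S,
        (Qf lines pts (S \ pts l) + (if isoL lines pts S l then (9 : ℝ) else 0)) := by
  classical
  have hA : ∀ h ∈ avail lines pts S, pts h ⊆ S := fun h hh => (Finset.mem_filter.mp hh).2
  have h1 : ∑ l ∈ avail lines pts S,
      (Qf lines pts S - ∑ q ∈ pts l, W (xdeg lines pts S q)
        + ∑ q ∈ S \ pts l, (jc lines pts S q l : ℝ) * dl (xdeg lines pts S q)) ≤
      ∑ l ∈ avail lines pts S, Qf lines pts (S \ pts l) :=
    Finset.sum_le_sum (fun l hl => Qf_sdiff_ge lines pts S l (hA l hl))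
  have h2 := swap_sum lines pts S hA (fun q => dl (xdeg lines pts S q))
  have h3 : ∑ l ∈ avail lines pts S,
      (Qf lines pts S - ∑ q ∈ pts l, W (xdeg lines pts S q)
        + ∑ q ∈ S \ pts l, (jc lines pts S q l : ℝ) * dl (xdeg lines pts S q)) =
      ((avail lines pts S).card : ℝ) * Qf lines pts S +
        ∑ h ∈ avail lines pts S, ∑ q ∈ pts h, ((cnt lines pts S q h : ℝ) * dl (xdeg lines pts S q)
          - W (xdeg lines pts S q)) := by
    rw [Finset.sum_add_distrib, Finset.sum_sub_distrib, h2, Finset.sum_const, nsmul_eq_mul]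
    have : ∀ h ∈ avail lines pts S,
        ∑ q ∈ pts h, ((cnt lines pts S q h : ℝ) * dl (xdeg lines pts S q)
          - W (xdeg lines pts S q)) =
        ∑ q ∈ pts h, (cnt lines pts S q h : ℝ) * dl (xdeg lines pts S q)
          - ∑ q ∈ pts h, W (xdeg lines pts S q) := fun h _ => Finset.sum_sub_distrib _ _
    rw [Finset.sum_congr rfl this, Finset.sum_sub_distrib]
    ring
  have h4 : -∑ l ∈ avail lines pts S, (if isoL lines pts S l then (9 : ℝ) else 0) ≤
      ∑ h ∈ avail lines pts S, ∑ q ∈ pts h, ((cnt lines pts S q h : ℝ) * dl (xdeg lines pts S q)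
          - W (xdeg lines pts S q)) := by
    rw [← Finset.sum_neg_distrib]
    exact Finset.sum_le_sum (fun h hh => per_line lines pts S hcard hlin hh)
  rw [Finset.sum_add_distrib]
  linarith

end Abstract

end Vale.Agent.Lib.P046
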