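import Mathlib
import Vale.Agent.Lib.P046.Lyap
import Vale.Agent.Lib.P046.Defs

/-!
The Lyapunov inequality for the triangle removal process.
-/

namespace Vale.Agent.Lib.P046

open Finset
open scoped Classical

variable {n : ℕ}

/-- The edges (unordered pairs of distinct vertices) spanned by `t`. -/
def ptsT (t : Finset (Fin n)) : Finset (Sym2 (Fin n)) := t.sym2.filter (fun e => ¬ e.IsDiag)

/-- All 3-element vertex sets. -/
def linesT : Finset (Finset (Fin n)) := (univ : Finset (Fin n)).powersetCard 3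

lemma mk_mem_ptsT {t : Finset (Fin n)} {a b : Fin n} :
    s(a, b) ∈ ptsT t ↔ a ∈ t ∧ b ∈ t ∧ a ≠ b := by
  simp [ptsT, and_assoc]

lemma ptsT_eq_image (t : Finset (Fin n)) : ptsT t = t.offDiag.image Sym2.mk.uncurry := by
  ext e
  induction e using Sym2.ind with
  | _ a b =>
    rw [mk_mem_ptsT, Finset.mem_image]
    constructor
    · rintro ⟨ha, hb, hab⟩
      exact ⟨(a, b), by simp [ha, hb, hab], rfl⟩
    · rintro ⟨⟨c, d⟩, hp, he⟩
      simp only [Finset.mem_offDiag] at hp
      simp only [Function.uncurry, Sym2.eq_iff] at he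
      rcases he with ⟨rfl, rfl⟩ | ⟨rfl, rfl⟩
      · exact ⟨hp.1, hp.2.1, hp.2.2⟩
      · exact ⟨hp.2.1, hp.1, Ne.symm hp.2.2⟩

lemma card_ptsT (t : Finset (Fin n)) : (ptsT t).card = t.card.choose 2 := by
  rw [ptsT_eq_image, Sym2.card_image_offDiag]

lemma linesT_card3 : ∀ l ∈ (linesT : Finset (Finset (Fin n))), (ptsT l).card = 3 := by
  intro l hl
  have : l.card = 3 := (Finset.mem_powersetCard.mp hl).2
  rw [card_ptsT, this]
  rfl

lemma linesT_lin : ∀ l ∈ (linesT : Finset (Finset (Fin n))), ∀ h ∈ (linesT : Finset (Finset (Fin n))),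
    ∀ a ∈ ptsT l, ∀ b ∈ ptsT l, a ∈ ptsT h → b ∈ ptsT h → a ≠ b → l = h := by
  intro l hl h hh a hal b hbl hah hbh hab
  by_contra hne
  have hlc : l.card = 3 := (Finset.mem_powersetCard.mp hl).2
  have hhc : h.card = 3 := (Finset.mem_powersetCard.mp hh).2
  have hu : (l ∩ h).card ≤ 2 := by
    by_contra hc
    have h3 : 3 ≤ (l ∩ h).card := by omega
    have e1 : l ∩ h = l := Finset.eq_of_subset_of_card_le Finset.inter_subset_left (by omega)
    have e2 : l ∩ h = h := Finset.eq_of_subset_of_card_le Finset.inter_subset_right (by omega)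
    exact hne (e1.symm.trans e2)
  have hp : (ptsT (l ∩ h)).card ≤ 1 := by
    rw [card_ptsT]
    interval_cases (l ∩ h).card <;> decide
  have memu : ∀ e, e ∈ ptsT l → e ∈ ptsT h → e ∈ ptsT (l ∩ h) := by
    intro e
    induction e using Sym2.ind with
    | _ u v =>
      simp only [mk_mem_ptsT, Finset.mem_inter]
      tauto
  exact hab (Finset.card_le_one.mp hp a (memu a hal hah) b (memu b hbl hbh))

lemma tri_eq_avail (G : SimpleGraph (Fin n)) :
    tri G = avail linesT ptsT G.edgeFinset := by
  ext t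
  simp only [tri, avail, linesT, SimpleGraph.mem_cliqueFinset_iff, SimpleGraph.isNClique_iff,
    Finset.mem_filter, Finset.mem_powersetCard, Finset.subset_univ, true_and]
  constructor
  · rintro ⟨hcl, hc⟩
    refine ⟨hc, ?_⟩
    intro e
    induction e using Sym2.ind with
    | _ a b =>
      rw [mk_mem_ptsT, SimpleGraph.mem_edgeFinset, SimpleGraph.mem_edgeSet]
      rintro ⟨ha, hb, hab⟩
      exact hcl ha hb hab
  · rintro ⟨hc, hs⟩
    refine ⟨?_, hc⟩
    intro a ha b hb hab
    have := hs (mk_mem_ptsT.mpr ⟨ha, hb, hab⟩)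
    rwa [SimpleGraph.mem_edgeFinset, SimpleGraph.mem_edgeSet] at this

lemma edgeFinset_removeTri (G : SimpleGraph (Fin n)) (t : Finset (Fin n)) :
    (removeTri G t).edgeFinset = G.edgeFinset \ ptsT t := by
  ext e
  induction e using Sym2.ind with
  | _ a b =>
    rw [SimpleGraph.mem_edgeFinset, removeTri, SimpleGraph.edgeSet_deleteEdges, Finset.mem_sdiff,
      SimpleGraph.mem_edgeFinset, mk_mem_ptsT, Set.mem_sdiff, SimpleGraph.mem_edgeSet]
    simp only [Finset.mem_coe, Finset.mk_mem_sym2_iff]
    constructor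
    · rintro ⟨h1, h2⟩
      exact ⟨h1, fun h3 => h2 ⟨h3.1, h3.2.1⟩⟩
    · rintro ⟨h1, h2⟩
      exact ⟨h1, fun h3 => h2 ⟨h3.1, h3.2, h1.ne⟩⟩

lemma isIso_iff (G : SimpleGraph (Fin n)) (t : Finset (Fin n)) :
    isIso G t ↔ isoL linesT ptsT G.edgeFinset t := by
  rw [isIso, isoL, ← tri_eq_avail]
  apply forall_congr'
  intro t'
  apply imp_congr_right
  intro _
  apply imp_congr_right
  intro _
  constructor
  · intro h
    rw [Finset.disjoint_left]
    intro e
    induction e using Sym2.ind with
    | _ a b =>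
      rw [mk_mem_ptsT, mk_mem_ptsT]
      rintro ⟨h1, h2, h3⟩ ⟨h4, h5, _⟩
      have : 1 < (t' ∩ t).card :=
        Finset.one_lt_card.mpr ⟨a, Finset.mem_inter.mpr ⟨h1, h4⟩, b,
          Finset.mem_inter.mpr ⟨h2, h5⟩, h3⟩
      omega
  · intro h
    by_contra hc
    have : 1 < (t' ∩ t).card := by omega
    obtain ⟨a, ha, b, hb, hab⟩ := Finset.one_lt_card.mp this
    rw [Finset.mem_inter] at ha hb
    exact (Finset.disjoint_left.mp h) (mk_mem_ptsT.mpr ⟨ha.1, hb.1, hab⟩)
      (mk_mem_ptsT.mpr ⟨ha.2, hb.2, hab⟩)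

/-- The universal Lyapunov inequality: for every graph, the weighted codegree sum is at most
`7 E[F] + 9 E[M]`. -/
theorem Q_le (G : SimpleGraph (Fin n)) :
    Qf linesT ptsT G.edgeFinset ≤ 7 * expF G + 9 * expM G := by
  induction' hk : G.edgeFinset.card using Nat.strong_induction_on with k ih generalizing G
  by_cases hne : (tri G).Nonempty
  · have hN : (0 : ℝ) < ((tri G).card : ℝ) := by exact_mod_cast Finset.card_pos.mpr hne
    have hstep := one_step linesT ptsT G.edgeFinset linesT_card3 linesT_lin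
    rw [← tri_eq_avail] at hstep
    have hrec : ∀ t ∈ tri G, Qf linesT ptsT (G.edgeFinset \ ptsT t) +
        (if isoL linesT ptsT G.edgeFinset t then (9 : ℝ) else 0) ≤
        7 * expF (removeTri G t) + 9 * ((if isIso G t then 1 else 0) + expM (removeTri G t)) := by
      intro t ht
      have h1 := ih _ (hk ▸ card_edgeFinset_removeTri_lt G t ht) (removeTri G t) rfl
      rw [edgeFinset_removeTri] at h1
      by_cases hi : isIso G t
      · rw [if_pos ((isIso_iff G t).mp hi), if_pos hi]
        linarith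
      · rw [if_neg (fun h => hi ((isIso_iff G t).mpr h)), if_neg hi]
        linarith
    have hsum := Finset.sum_le_sum hrec
    rw [expF_of_nonempty G hne, expM_of_nonempty G hne]
    have e : 7 * ((∑ t ∈ tri G, expF (removeTri G t)) / ((tri G).card : ℝ)) +
        9 * ((∑ t ∈ tri G, ((if isIso G t then 1 else 0) + expM (removeTri G t))) /
          ((tri G).card : ℝ)) =
        (∑ t ∈ tri G, (7 * expF (removeTri G t) +
          9 * ((if isIso G t then 1 else 0) + expM (removeTri G t)))) / ((tri G).card : ℝ) := by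
      have e' : ∑ t ∈ tri G, (7 * expF (removeTri G t) +
          9 * ((if isIso G t then 1 else 0) + expM (removeTri G t))) =
          7 * ∑ t ∈ tri G, expF (removeTri G t) +
          9 * ∑ t ∈ tri G, ((if isIso G t then 1 else 0) + expM (removeTri G t)) := by
        rw [Finset.sum_add_distrib, ← Finset.mul_sum, ← Finset.mul_sum]
      rw [e']
      ring
    rw [e, le_div_iff₀ hN]
    rw [mul_comm]
    exact hstep.trans hsum
  · have hav : avail linesT ptsT G.edgeFinset = ∅ := by
      rw [← tri_eq_avail]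
      exact Finset.not_nonempty_iff_eq_empty.mp hne
    have hQ : Qf linesT ptsT G.edgeFinset = 7 * (G.edgeFinset.card : ℝ) := by
      rw [Qf, Finset.sum_congr rfl (g := fun _ => (7 : ℝ))]
      · rw [Finset.sum_const, nsmul_eq_mul]
        ring
      · intro e _
        have : xdeg linesT ptsT G.edgeFinset e = 0 := by
          rw [xdeg, hav]
          simp
        rw [this, W_zero]
    rw [hQ, expF_of_empty G hne, expM_of_empty G hne]
    simp

/-- In the complete graph every pair lies in at most `n - 2` triples. -/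
lemma xdeg_top_le (e : Sym2 (Fin n)) (he : e ∈ (⊤ : SimpleGraph (Fin n)).edgeFinset) :
    xdeg linesT ptsT (⊤ : SimpleGraph (Fin n)).edgeFinset e ≤ n - 2 := by
  induction e using Sym2.ind with
  | _ a b =>
    have hab : a ≠ b := by
      rw [SimpleGraph.mem_edgeFinset, SimpleGraph.mem_edgeSet] at he
      exact he
    rw [xdeg]
    have hsub : (avail linesT ptsT (⊤ : SimpleGraph (Fin n)).edgeFinset).filter
        (fun l => s(a, b) ∈ ptsT l) ⊆
        ((univ : Finset (Fin n)) \ {a, b}).image (fun c => ({a, b, c} : Finset (Fin n))) := by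
      intro l hl
      rw [Finset.mem_filter, mk_mem_ptsT] at hl
      obtain ⟨hl0, hal, hbl, _⟩ := hl
      have hl1 := (Finset.mem_filter.mp hl0).1
      have hc : l.card = 3 := (Finset.mem_powersetCard.mp hl1).2
      have hsubab : ({a, b} : Finset (Fin n)) ⊆ l := by
        intro v hv
        simp only [Finset.mem_insert, Finset.mem_singleton] at hv
        rcases hv with rfl | rfl <;> assumption
      have hcard : (l \ {a, b}).card = 1 := by
        rw [Finset.card_sdiff_of_subset hsubab, hc, Finset.card_pair hab]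
      obtain ⟨c, hc'⟩ := Finset.card_eq_one.mp hcard
      have hcm : c ∈ l \ {a, b} := by rw [hc']; simp
      rw [Finset.mem_sdiff] at hcm
      rw [Finset.mem_image]
      refine ⟨c, by simp only [Finset.mem_sdiff, Finset.mem_univ, true_and]; exact hcm.2, ?_⟩
      ext v
      simp only [Finset.mem_insert, Finset.mem_singleton]
      constructor
      · rintro (rfl | rfl | rfl)
        · exact hal
        · exact hbl
        · exact hcm.1
      · intro hv
        by_cases hvab : v ∈ ({a, b} : Finset (Fin n))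
        · simp only [Finset.mem_insert, Finset.mem_singleton] at hvab
          tauto
        · have : v ∈ l \ {a, b} := Finset.mem_sdiff.mpr ⟨hv, hvab⟩
          rw [hc', Finset.mem_singleton] at this
          tauto
    calc _ ≤ _ := Finset.card_le_card hsub
      _ ≤ ((univ : Finset (Fin n)) \ {a, b}).card := Finset.card_image_le
      _ = n - 2 := by
        rw [Finset.card_sdiff_of_subset (Finset.subset_univ _), Finset.card_univ, Fintype.card_fin,
          Finset.card_pair hab]

/-- The Lyapunov value of the complete graph. -/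
lemma Q_top_ge (hn : 3 ≤ n) :
    ((n : ℝ) - 1) * Real.sqrt n ≤ Qf linesT ptsT (⊤ : SimpleGraph (Fin n)).edgeFinset := by
  have h1 : ((⊤ : SimpleGraph (Fin n)).edgeFinset.card : ℝ) * W (n - 2) ≤
      Qf linesT ptsT (⊤ : SimpleGraph (Fin n)).edgeFinset := by
    rw [← nsmul_eq_mul, ← Finset.sum_const, Qf]
    apply Finset.sum_le_sum
    intro e he
    exact W_anti (xdeg_top_le e he)
  have h2 : ((⊤ : SimpleGraph (Fin n)).edgeFinset.card : ℝ) = (n : ℝ) * ((n : ℝ) - 1) / 2 := by
    rw [SimpleGraph.card_edgeFinset_top_eq_card_choose_two, Fintype.card_fin, Nat.cast_choose_two]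
  refine le_trans ?_ h1
  rw [h2]
  obtain ⟨k, rfl⟩ : ∃ k, n = k + 3 := ⟨n - 3, by omega⟩
  have h3 : k + 3 - 2 = k + 1 := by omega
  rw [h3]
  have h4 := W_sq_ge k
  have hWpos := W_pos (k + 1)
  set w := W (k + 1) with hw
  have hk : (0 : ℝ) ≤ k := Nat.cast_nonneg k
  push_cast
  set N : ℝ := (k : ℝ) + 3 with hN
  have hNpos : (0 : ℝ) < N := by positivity
  set s := Real.sqrt N with hs
  have hs2 : s ^ 2 = N := Real.sq_sqrt hNpos.le
  have hspos : 0 < s := Real.sqrt_pos.mpr hNpos
  have h5 : 9 ≤ 2 * N * w ^ 2 := by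
    have : 2 * (k : ℝ) + 1 ≤ 2 * N := by rw [hN]; linarith
    calc (9 : ℝ) ≤ w ^ 2 * (2 * (k : ℝ) + 1) := h4
      _ ≤ w ^ 2 * (2 * N) := mul_le_mul_of_nonneg_left this (by positivity)
      _ = 2 * N * w ^ 2 := by ring
  have h6 : 2 ≤ s * w := by
    by_contra hc
    push Not at hc
    have h7 : (s * w) ^ 2 < 4 := by
      have : 0 < s * w := by positivity
      nlinarith
    have h8 : (s * w) ^ 2 = N * w ^ 2 := by rw [mul_pow, hs2]
    nlinarith
  have hN1 : (0 : ℝ) ≤ N - 1 := by rw [hN]; linarith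
  have h9 : (N - 1) * s * 2 ≤ (N - 1) * s * (s * w) :=
    mul_le_mul_of_nonneg_left h6 (by positivity)
  have h10 : (N - 1) * s * (s * w) = (N - 1) * N * w := by
    rw [← hs2]; ring
  nlinarith

/-- The main inequality. -/
theorem main_ineq (hn : 3 ≤ n) :
    ((n : ℝ) - 1) * Real.sqrt n ≤
      7 * expF (⊤ : SimpleGraph (Fin n)) + 9 * expM (⊤ : SimpleGraph (Fin n)) := by
  refine le_trans ?_ (Q_le (⊤ : SimpleGraph (Fin n)))
  have key : ∀ (i1 i2 : Fintype (⊤ : SimpleGraph (Fin n)).edgeSet),
      @SimpleGraph.edgeFinset (Fin n) ⊤ i1 = @SimpleGraph.edgeFinset (Fin n) ⊤ i2 := by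
    intro i1 i2
    rw [Subsingleton.elim i1 i2]
  exact le_of_le_of_eq (Q_top_ge hn) (congrArg (Qf linesT ptsT) (key _ _))

end Vale.Agent.Lib.P046
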